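import Vale.Agent.P159.T1.H130.TileU
import Vale.Agent.P159.T1.H568.Fou
import Vale.Agent.P159.T1.D.Stmts

/-!
Assembly of `StmtU` from the tiling bound, the duality and the comparison of heights and currents.
-/

set_option linter.all false
set_option autoImplicit false

open MeasureTheory Filter Topology
open scoped BigOperators

namespace Vale.Agent.P159.T1.D.H130

open Vale.Agent.P159 Vale.Agent.P159.UJ Vale.Agent.P159.H353 Vale.Agent.P159.T1.D
open Vale.Agent.P159.T1.H130 (cb tile_u)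
open Vale.Agent.P159.T1.H568 (chq dvg fou)
open Vale.Agent.P159.T1.H532 (Gw Xe)

/-- first and second end points of the bonds of a finite set -/
def sE (E : Finset Bnd) (e : E) : Z2 := bs e.1
def tE (E : Finset Bnd) (e : E) : Z2 := bt e.1

/-- sum over the currents on `E` with the divergence of `m` -/
noncomputable def Sf (b : ℝ) (E : Finset Bnd) (m : Bnd → ℤ) (B : Bnd → ℝ) : ℝ :=
  ∑' k : {k : E → ℤ // ∀ v, dvg (sE E) (tE E) k v = dvg (sE E) (tE E) (fun e => m e.1) v},
    Gw (fun _ : E => b) k.1 * Real.exp (Xe (fun e : E => B e.1) k.1)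

/-- the comparison of the heights on `U` with the currents on `bd U` -/
def StmtU1 : Prop :=
  ∀ (b : ℝ) (U : Finset Z2) (m : Bnd → ℤ) (B : Bnd → ℝ), 0 ≤ b →
    ZB b U m B * Sf b (bd U) 0 0 ≤ Z b U * Sf b (bd U) m B

theorem sf_eq {b : ℝ} (hb : 0 ≤ b) (E : Finset Bnd) (m : Bnd → ℤ) (B : Bnd → ℝ) :
    ∃ A : Chr Ginf, ((Sf b E m B : ℝ) : ℂ) =
      ∫ x, A.e x * Complex.exp (∑ e ∈ E, b * (cb e).C (B e * Complex.I) x) ∂muInf := by
  classical
  set V : Finset Z2 := E.image bs ∪ E.image bt with hV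
  set q : Z2 → ℤ := fun v => dvg (sE E) (tE E) (fun e : E => m e.1) v with hq
  have hs : ∀ e : E, sE E e ∈ V := fun e =>
    Finset.mem_union_left _ (Finset.mem_image_of_mem _ e.2)
  have ht : ∀ e : E, tE E e ∈ V := fun e =>
    Finset.mem_union_right _ (Finset.mem_image_of_mem _ e.2)
  have hq0 : ∀ v, v ∉ V → q v = 0 := by
    intro v hv
    simp only [hq]
    unfold dvg
    refine Finset.sum_eq_zero fun e _ => ?_
    rw [if_neg fun h => hv (by rw [← h]; exact hs e), if_neg fun h => hv (by rw [← h]; exact ht e),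
      sub_zero]
  refine ⟨chq V q, ?_⟩
  have h := (fou (sE E) (tE E) (J := fun _ : E => b) (fun _ => hb) (fun e : E => B e.1) V q
    hs ht hq0).2
  unfold Sf
  rw [← h]
  congr 1
  ext x
  congr 1
  unfold WW
  congr 1
  rw [← Finset.sum_coe_sort E]
  rfl

theorem sf_zero {b : ℝ} (hb : 0 ≤ b) (E : Finset Bnd) :
    Sf b E 0 0 = ∫ x, Real.exp (∑ e ∈ E, b * (cb e).c x) ∂muInf := by
  classical
  set V : Finset Z2 := E.image bs ∪ E.image bt with hV
  have hs : ∀ e : E, sE E e ∈ V := fun e =>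
    Finset.mem_union_left _ (Finset.mem_image_of_mem _ e.2)
  have ht : ∀ e : E, tE E e ∈ V := fun e =>
    Finset.mem_union_right _ (Finset.mem_image_of_mem _ e.2)
  have h := (fou (sE E) (tE E) (J := fun _ : E => b) (fun _ => hb) (fun _ : E => (0 : ℝ)) V 0
    hs ht (fun _ _ => rfl)).2
  have hd : ∀ v, dvg (sE E) (tE E) (fun e : E => (0 : Bnd → ℤ) e.1) v = (0 : Z2 → ℤ) v := by
    intro v
    unfold dvg
    simp
  have h1 : Sf b E 0 0 = ∑' k : {k : E → ℤ // ∀ v, dvg (sE E) (tE E) k v = (0 : Z2 → ℤ) v},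
      Gw (fun _ : E => b) k.1 * Real.exp (Xe (fun _ : E => (0 : ℝ)) k.1) := by
    have h0 : (fun v => dvg (sE E) (tE E) (fun e : E => (0 : Bnd → ℤ) e.1) v) = (0 : Z2 → ℤ) :=
      funext hd
    show (∑' k : {k : E → ℤ // ∀ v, dvg (sE E) (tE E) k v =
        (fun v => dvg (sE E) (tE E) (fun e : E => (0 : Bnd → ℤ) e.1) v) v},
      Gw (fun _ : E => b) k.1 * Real.exp (Xe (fun _ : E => (0 : ℝ)) k.1)) = _
    rw [h0]
  have h2 : ((Sf b E 0 0 : ℝ) : ℂ) =
      ((∫ x, Real.exp (∑ e ∈ E, b * (cb e).c x) ∂muInf : ℝ) : ℂ) := by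
    rw [h1, ← h, ← integral_complex_ofReal]
    congr 1
    ext x
    have h3 : (chq V (0 : Z2 → ℤ)).e x = 1 := by
      unfold Chr.e chq
      simp only [Pi.zero_apply, zero_smul, Finset.sum_const_zero]
      rw [cosT_zero, sinT_zero]
      simp
    rw [h3, one_mul]
    unfold WW
    rw [Complex.ofReal_exp]
    congr 1
    push_cast
    rw [← Finset.sum_coe_sort E]
    refine Finset.sum_congr rfl fun e _ => ?_
    rw [zero_mul, Chr.C_zero]
    rfl
  exact_mod_cast h2

theorem sf_pos {b : ℝ} (hb : 0 ≤ b) (E : Finset Bnd) : 0 < Sf b E 0 0 := by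
  rw [sf_zero hb]
  refine integral_exp_pos (cint ?_)
  refine Real.continuous_exp.comp (continuous_finsetSum _ fun e _ => ?_)
  exact continuous_const.mul (cb e).cont_c

/-- the upper bound from the comparison of heights and currents -/
theorem stmtU_of (h1 : StmtU1) : StmtU := by
  intro b ε hb hε
  obtain ⟨l, η, C, hη, hC, h⟩ := tile_u hb hε
  refine ⟨l, η, C, hη, hC, fun U S m B hB hBη => ?_⟩
  obtain ⟨A, hA⟩ := sf_eq hb.le (bd U) m B
  have h2 := h (bd U) S B hB hBη A
  rw [← hA, ← sf_zero hb.le, Complex.norm_real, Real.norm_eq_abs] at h2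
  have h3 := (le_abs_self _).trans h2
  have h4 := h1 b U m B hb.le
  have hp := sf_pos hb.le (bd U)
  have hZ : 0 ≤ Z b U := by
    unfold Z
    refine tsum_nonneg fun x => ?_
    unfold wt
    exact Finset.prod_nonneg fun e _ => wI_nonneg hb.le _
  have h5 : ZB b U m B * Sf b (bd U) 0 0 ≤
      (Real.exp ((helicity b + ε) / 2 * ∑ e ∈ S, B e ^ 2 + C * osc l S B) * Z b U) *
        Sf b (bd U) 0 0 := by
    refine h4.trans ?_
    calc Z b U * Sf b (bd U) m B ≤ Z b U * (Real.exp ((helicity b + ε) / 2 *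
          ∑ e ∈ S, B e ^ 2 + C * osc l S B) * Sf b (bd U) 0 0) :=
        mul_le_mul_of_nonneg_left h3 hZ
      _ = _ := by ring
  exact le_of_mul_le_mul_right h5 hp

end Vale.Agent.P159.T1.D.H130
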