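import Vale.Agent.P159.T1.H731.U
import Vale.Agent.P159.T1.H568.UBlock
import Vale.Agent.P159.T1.D.Stmts

/-!
`StmtU`.
-/

namespace Vale.Agent.P159.T1.D

/-- **row D.U** -/
theorem stmtU : StmtU :=
  Vale.Agent.P159.T1.H731.stmtU Vale.Agent.P159.T1.H568.block_fac

end Vale.Agent.P159.T1.D
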